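import Mathlib

/-! P235: random signs on a forest. -/

namespace Vale.Agent.H7.P235

open Finset Classical

/-- correlation -/
noncomputable def EE {V Ω : Type} [Fintype Ω] (μ : Ω → ℝ) (h : V → Ω → ℝ) (u v : V) : ℝ :=
  ∑ ω, μ ω * (h u ω * h v ω)

theorem EE_comm {V Ω : Type} [Fintype Ω] (μ : Ω → ℝ) (h : V → Ω → ℝ) (u v : V) :
    EE μ h u v = EE μ h v u := by
  unfold EE
  exact Finset.sum_congr rfl fun ω _ => by ring

theorem ext_sign {V Ω : Type} [Fintype Ω] (μ : Ω → ℝ) (h : V → Ω → ℝ) (hμ0 : ∀ ω, 0 ≤ μ ω)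
    (hμ1 : ∑ ω, μ ω = 1) (hh : ∀ v ω, h v ω = 1 ∨ h v ω = -1) (x w : V) (κ : ℝ) (h0 : 0 ≤ κ)
    (h1 : κ ≤ 1) :
    ∃ (Ω' : Type) (_ : Fintype Ω') (μ' : Ω' → ℝ) (h' : V → Ω' → ℝ), (∀ ω, 0 ≤ μ' ω) ∧
      ∑ ω, μ' ω = 1 ∧ (∀ v ω, h' v ω = 1 ∨ h' v ω = -1) ∧
      (∀ u v, u ≠ x → v ≠ x → EE μ' h' u v = EE μ h u v) ∧
      (∀ u, u ≠ x → EE μ' h' u x = κ * EE μ h u w) := by
  refine ⟨Ω × Bool, inferInstance, fun q => μ q.1 * (if q.2 then (1 - κ) / 2 else (1 + κ) / 2),
    fun v q => if v = x then (if q.2 then -1 else 1) * h w q.1 else h v q.1, ?_, ?_, ?_, ?_, ?_⟩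
  · rintro ⟨ω, b⟩
    cases b
    · simp only [Bool.false_eq_true, if_false]; have := hμ0 ω; positivity
    · simp only [if_true]; have := hμ0 ω
      have : 0 ≤ (1 - κ) / 2 := by linarith
      positivity
  · rw [Fintype.sum_prod_type]
    simp only [Fintype.sum_bool, if_true, Bool.false_eq_true, if_false]
    have e : ∀ ω, μ ω * ((1 - κ) / 2) + μ ω * ((1 + κ) / 2) = μ ω := fun ω => by ring
    simp_rw [e]
    exact hμ1
  · rintro v ⟨ω, b⟩
    by_cases hv : v = x
    · simp only [hv, if_true]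
      rcases hh w ω with h2 | h2 <;> cases b <;> simp [h2]
    · simp only [hv, if_false]
      exact hh v ω
  · intro u v hu hv
    unfold EE
    rw [Fintype.sum_prod_type]
    simp only [Fintype.sum_bool, if_true, Bool.false_eq_true, if_false, hu, hv]
    exact Finset.sum_congr rfl fun ω _ => by ring
  · intro u hu
    unfold EE
    rw [Fintype.sum_prod_type, Finset.mul_sum]
    simp only [Fintype.sum_bool, if_true, Bool.false_eq_true, if_false, hu]
    exact Finset.sum_congr rfl fun ω _ => by ring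

theorem frac_mono {s t c : ℝ} (hs : 0 < s) (hst : s ≤ t) (hc : 0 ≤ c) :
    s / (s + c) ≤ t / (t + c) := by
  rw [div_le_div_iff₀ (by linarith) (by linarith)]
  nlinarith

theorem jineq (ru rx rw l duw dux : ℝ) (hu : 0 < ru) (hx : 0 < rx) (hw : 0 < rw) (hl : 0 ≤ l)
    (hd : 0 ≤ duw) (hd' : 0 ≤ dux) (h1 : dux ≤ duw + l) (h2 : rw ≤ rx + l) (h3 : rw ≤ ru + duw) :
    (1 / (1 + l / min rw rx)) * (min ru rw / (min ru rw + duw)) ≤
      min ru rx / (min ru rx + dux) := by
  have ha : 0 < min rw rx := lt_min hw hx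
  have hb : 0 < min ru rw := lt_min hu hw
  have e1 : 1 / (1 + l / min rw rx) = min rw rx / (min rw rx + l) := by
    field_simp
  rw [e1]
  rcases le_total rx ru with hc | hc
  · rw [min_eq_right hc]
    have i1 : min rw rx / (min rw rx + l) ≤ rx / (rx + l) := frac_mono ha (min_le_right _ _) hl
    have i2 : min ru rw / (min ru rw + duw) ≤ (rx + l) / (rx + l + duw) :=
      frac_mono hb ((min_le_right _ _).trans h2) hd
    have i3 : rx / (rx + l) * ((rx + l) / (rx + l + duw)) = rx / (rx + l + duw) := by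
      field_simp
    calc _ ≤ rx / (rx + l) * ((rx + l) / (rx + l + duw)) :=
          mul_le_mul i1 i2 (by positivity) (by positivity)
      _ = rx / (rx + l + duw) := i3
      _ ≤ rx / (rx + dux) := div_le_div_of_nonneg_left hx.le (by linarith) (by linarith)
  · rw [min_eq_left hc]
    have i1 : min rw rx / (min rw rx + l) ≤ (ru + duw) / (ru + duw + l) :=
      frac_mono ha ((min_le_left _ _).trans h3) hl
    have i2 : min ru rw / (min ru rw + duw) ≤ ru / (ru + duw) := frac_mono hb (min_le_left _ _) hd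
    have i3 : (ru + duw) / (ru + duw + l) * (ru / (ru + duw)) = ru / (ru + duw + l) := by
      have : 0 < ru + duw := by linarith
      field_simp
    calc _ ≤ (ru + duw) / (ru + duw + l) * (ru / (ru + duw)) :=
          mul_le_mul i1 i2 (by positivity) (by positivity)
      _ = ru / (ru + duw + l) := i3
      _ ≤ ru / (ru + dux) := div_le_div_of_nonneg_left hu.le (by linarith) (by linarith)

/-- the signs -/
theorem signs {V : Type} (A : V → V → Prop) (hA : ∀ u v, A u v → A v u) (l d : V → V → ℝ)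
    (r : V → ℝ) (W : Finset V) (hr : ∀ v ∈ W, 0 < r v) (hls : ∀ u v, l u v = l v u)
    (hds : ∀ u v, d u v = d v u)
    (hl : ∀ u v, A u v → 0 < l u v) (hd0 : ∀ u v, 0 ≤ d u v) (hdd : ∀ u, d u u = 0)
    (htri : ∀ u w x, A w x → d u x ≤ d u w + l w x) (hrl : ∀ w x, A w x → r w ≤ r x + l w x)
    (hrd : ∀ u w, r w ≤ r u + d u w) (ord : V → ℕ) (hord : Function.Injective ord)
    (hfor : ∀ v ∈ W, ∀ u ∈ W, ∀ u' ∈ W, A u v → A u' v → ord u < ord v → ord u' < ord v → u = u') :
    ∀ S : Finset V, S ⊆ W → ∃ (Ω : Type) (_ : Fintype Ω) (μ : Ω → ℝ) (h : V → Ω → ℝ),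
      (∀ ω, 0 ≤ μ ω) ∧ ∑ ω, μ ω = 1 ∧ (∀ v ω, h v ω = 1 ∨ h v ω = -1) ∧
      (∀ u ∈ S, ∀ v ∈ S, EE μ h u v ≤ min (r u) (r v) / (min (r u) (r v) + d u v)) ∧
      (∀ u ∈ S, ∀ v ∈ S, u ≠ v → A u v → EE μ h u v = 1 / (1 + l u v / min (r u) (r v))) := by
  intro S
  induction S using Finset.induction_on_max_value ord with
  | empty =>
    intro _
    exact ⟨Unit, inferInstance, fun _ => 1, fun _ _ => 1, by simp, by simp, by simp, by simp,
      by simp⟩
  | insert x S hx hmax ih =>
    intro hS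
    have hSW : S ⊆ W := fun v hv => hS (Finset.mem_insert_of_mem hv)
    have hxW : x ∈ W := hS (Finset.mem_insert_self x S)
    obtain ⟨Ω, hΩ, μ, h, hμ0, hμ1, hh, hE1, hE2⟩ := ih hSW
    have hlt : ∀ u ∈ S, ord u < ord x := fun u hu =>
      lt_of_le_of_ne (hmax u hu) (fun e => hx (hord e ▸ hu))
    have hself : ∀ {Ω : Type} [Fintype Ω] (μ : Ω → ℝ) (h : V → Ω → ℝ), ∑ ω, μ ω = 1 →
        (∀ v ω, h v ω = 1 ∨ h v ω = -1) → ∀ u, EE μ h u u = 1 := by
      intro Ω _ μ h h1 h2 u
      unfold EE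
      have e : ∀ ω, μ ω * (h u ω * h u ω) = μ ω := by
        intro ω
        rcases h2 u ω with h3 | h3 <;> rw [h3] <;> ring
      simp_rw [e]
      exact h1
    -- the parent
    obtain ⟨w, κ, hκ0, hκ1, hb, he⟩ : ∃ (w : V) (κ : ℝ), 0 ≤ κ ∧ κ ≤ 1 ∧
        (∀ u ∈ S, κ * EE μ h u w ≤ min (r u) (r x) / (min (r u) (r x) + d u x)) ∧
        (∀ u ∈ S, A u x → κ * EE μ h u w = 1 / (1 + l u x / min (r u) (r x))) := by
      by_cases hw : ∃ w ∈ S, A w x
      · obtain ⟨w, hwS, hwx⟩ := hw
        have hwp := hr w (hSW hwS)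
        have hxp := hr x hxW
        have hlp := hl w x hwx
        have hmp : 0 < min (r w) (r x) := lt_min hwp hxp
        refine ⟨w, 1 / (1 + l w x / min (r w) (r x)), by positivity, ?_, ?_, ?_⟩
        · rw [div_le_one (by positivity)]
          have : 0 ≤ l w x / min (r w) (r x) := by positivity
          linarith
        · intro u hu
          refine (mul_le_mul_of_nonneg_left (hE1 u hu w hwS) (by positivity)).trans ?_
          exact jineq (r u) (r x) (r w) (l w x) (d u w) (d u x) (hr u (hSW hu)) hxp hwp hlp.le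
            (hd0 _ _) (hd0 _ _) (htri u w x hwx) (hrl w x hwx) (hrd u w)
        · intro u hu hux
          have : u = w := hfor x hxW u (hSW hu) w (hSW hwS) hux hwx (hlt u hu) (hlt w hwS)
          subst this
          rw [hself μ h hμ1 hh, mul_one]
      · refine ⟨x, 0, le_rfl, zero_le_one, ?_, ?_⟩
        · intro u hu
          rw [zero_mul]
          have h1 := hr u (hSW hu)
          have h2 := hr x hxW
          have h3 : 0 < min (r u) (r x) := lt_min h1 h2
          have h4 := hd0 u x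
          positivity
        · intro u hu hux
          exact absurd ⟨u, hu, hux⟩ hw
    obtain ⟨Ω', hΩ', μ', h', hμ0', hμ1', hh', hE1', hE2'⟩ :=
      ext_sign μ h hμ0 hμ1 hh x w κ hκ0 hκ1
    refine ⟨Ω', hΩ', μ', h', hμ0', hμ1', hh', ?_, ?_⟩
    · intro u hu v hv
      rw [Finset.mem_insert] at hu hv
      rcases hu with rfl | hu <;> rcases hv with rfl | hv
      · rw [hself μ' h' hμ1' hh', hdd, add_zero, div_self]
        exact (lt_min (hr _ hxW) (hr _ hxW)).ne'
      · have hne : v ≠ u := fun e => hx (e ▸ hv)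
        rw [EE_comm, hE2' v hne, min_comm, hds]
        exact hb v hv
      · have hne : u ≠ v := fun e => hx (e ▸ hu)
        rw [hE2' u hne]
        exact hb u hu
      · have hne : u ≠ x := fun e => hx (e ▸ hu)
        have hne' : v ≠ x := fun e => hx (e ▸ hv)
        rw [hE1' u v hne hne']
        exact hE1 u hu v hv
    · intro u hu v hv huv hadj
      rw [Finset.mem_insert] at hu hv
      rcases hu with rfl | hu <;> rcases hv with rfl | hv
      · exact absurd rfl huv
      · have hne : v ≠ u := fun e => hx (e ▸ hv)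
        rw [EE_comm, hE2' v hne, min_comm, hls]
        exact he v hv (hA _ _ hadj)
      · have hne : u ≠ v := fun e => hx (e ▸ hu)
        rw [hE2' u hne]
        exact he u hu hadj
      · have hne : u ≠ x := fun e => hx (e ▸ hu)
        have hne' : v ≠ x := fun e => hx (e ▸ hv)
        rw [hE1' u v hne hne']
        exact hE2 u hu v hv huv hadj

/-- the norm of `r h` differences -/
theorem norm_formula {V Ω : Type} [Fintype Ω] (μ : Ω → ℝ) (h : V → Ω → ℝ) (hμ0 : ∀ ω, 0 ≤ μ ω)
    (hμ1 : ∑ ω, μ ω = 1) (hh : ∀ v ω, h v ω = 1 ∨ h v ω = -1) (u v : V) (a b : ℝ) (ha : 0 ≤ a)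
    (hb : 0 ≤ b) :
    ∑ ω, |μ ω * (a * h u ω) - μ ω * (b * h v ω)| = |a - b| + min a b * (1 - EE μ h u v) := by
  have h1 : ∀ ω, |μ ω * (a * h u ω) - μ ω * (b * h v ω)| =
      μ ω * |a - b| + min a b * (μ ω - μ ω * (h u ω * h v ω)) := by
    intro ω
    rw [← mul_sub, abs_mul, abs_of_nonneg (hμ0 ω)]
    have key : |a * h u ω - b * h v ω| = |a - b| + min a b * (1 - h u ω * h v ω) := by
      rcases hh u ω with h2 | h2 <;> rcases hh v ω with h3 | h3 <;> rw [h2, h3]
      · ring_nf
      · have : a * 1 - b * -1 = a + b := by ring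
        rw [this, abs_of_nonneg (by linarith)]
        rcases le_total a b with h4 | h4
        · rw [min_eq_left h4, abs_of_nonpos (by linarith)]; ring
        · rw [min_eq_right h4, abs_of_nonneg (by linarith)]; ring
      · have : a * -1 - b * 1 = -(a + b) := by ring
        rw [this, abs_neg, abs_of_nonneg (by linarith)]
        rcases le_total a b with h4 | h4
        · rw [min_eq_left h4, abs_of_nonpos (by linarith)]; ring
        · rw [min_eq_right h4, abs_of_nonneg (by linarith)]; ring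
      · have : a * -1 - b * -1 = -(a - b) := by ring
        rw [this, abs_neg]; ring_nf
    rw [key]; ring
  simp_rw [h1]
  rw [Finset.sum_add_distrib, ← Finset.sum_mul, hμ1, one_mul, ← Finset.mul_sum,
    Finset.sum_sub_distrib, hμ1]
  rfl

end Vale.Agent.H7.P235
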